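import Vale.Agent.P243.Defs
import Vale.Agent.P243.Main

open MeasureTheory Set Vale.Agent.P243

/-- A convex body in three-space and a finite cylinder covering of it whose total base area is
less than half of the least projection area; also the relative area is less than one half. -/
theorem Vale.Agent.Results.P243.Bang.result :
    ∃ K : Set Space, IsConvexBody K ∧
      ∃ (m : ℕ) (u : Fin m → Space) (B : Fin m → Set Space),
        (∀ i, IsBase (B i) (u i)) ∧
        (K ⊆ ⋃ i, cylSet (B i) (u i)) ∧
        (2 * ∑ i, area (B i) < minArea K) ∧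
        (∑ i, area (B i) / projArea K (u i) < 1 / 2) := by
  obtain ⟨c, hc0, hc, hsum⟩ := total_lt
  let e : Fin (M + M) ≃ Fin M ⊕ Fin M := finSumFinEquiv.symm
  have hsum' : ∑ i, area (BB (e i)) = ENNReal.ofReal c := by
    rw [← hsum]; exact Equiv.sum_comp e (fun k => μHE[2] (BB k))
  refine ⟨KK, ⟨isCompact_KK, convex_KK, interior_KK⟩, M + M, fun i => uu (e i), fun i => BB (e i),
    fun i => ⟨norm_uu _, BB_sub _, BB_meas _, ?_⟩, ?_, ?_, ?_⟩
  · unfold area; rw [area_BB]; exact ENNReal.ofReal_ne_top
  · intro P hP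
    obtain ⟨k, hk⟩ := covered P hP
    refine mem_iUnion.2 ⟨e.symm k, ?_⟩
    simpa [cylSet] using hk
  · rw [hsum']
    refine lt_of_lt_of_le ?_ (le_iInf₂ fun v hv => area_proj_ge hv)
    rw [← ENNReal.ofReal_ofNat 2, ← ENNReal.ofReal_mul (by norm_num),
      ENNReal.ofReal_lt_ofReal_iff H_pos]
    exact hc
  · calc ∑ i, area (BB (e i)) / projArea KK (uu (e i))
        ≤ ∑ i, area (BB (e i)) / ENNReal.ofReal H :=
          Finset.sum_le_sum fun i _ => ENNReal.div_le_div_left (area_proj_ge (norm_uu _)) _
      _ = ENNReal.ofReal c / ENNReal.ofReal H := by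
          rw [← hsum']; simp only [div_eq_mul_inv]; rw [Finset.sum_mul]
      _ < 1 / 2 := by
          rw [← ENNReal.ofReal_div_of_pos H_pos, ← ENNReal.ofReal_one, ← ENNReal.ofReal_ofNat 2,
            ← ENNReal.ofReal_div_of_pos (by norm_num), ENNReal.ofReal_lt_ofReal_iff (by norm_num),
            div_lt_iff₀ H_pos]
          linarith
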